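import Vale.Agent.P179.H5.Rg3

/-!
# The blockwise Alperin weight conjecture as a count of pairs with a given commutator

For a class of finite groups closed under subgroups, quotients by normal `p`-subgroups and wreath
products with groups of order `p` (for example all finite groups), the blockwise Alperin weight
conjecture for all `p`-blocks is equivalent to the following: if `O_p(G) = 1` and `g` is an
exceptional element of `G`, then `p |C_G(g)|_p` divides the number of pairs `(x, y)` with
`x y x⁻¹ y⁻¹ = g` and `x` of order prime to `p`, such that `⟨x, y⟩` contains all elements of order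
prime to `p`. For the elements `g` of order divisible by `p` which are not exceptional this
divisibility always holds. Modulo `p |C_G(g)|_p` the condition on the order of `x` does not matter.
-/

open P179B P179S

theorem Vale.Agent.Results.P179.CommutatorPairCount.result (p : ℕ) [Fact p.Prime]
    (k : Type*) [Field k] [IsAlgClosed k] [CharP k p] :
    Nonempty (integralClosure ℤ ℂ →+* k) ∧
    (∀ (red : integralClosure ℤ ℂ →+* k) (𝒞 : ∀ (G : Type) [Group G], Prop),
      SectionClosed p 𝒞 →
      List.TFAE [WeightConjMod p red 𝒞, RegDivisible p 𝒞, RegDivisibleExc p 𝒞] ∧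
      (WreathClosed p 𝒞 → (WeightConj p red 𝒞 ↔ RegDivisibleExc p 𝒞))) ∧
    ∀ (G : Type) [Group G] [Finite G], (∀ R : Subgroup G, R.Normal → IsPGroup p R → R = ⊥) →
      ∀ g : G, p ∣ orderOf g →
        genCount p g ≡ regCount p g
          [MOD p * p ^ (Nat.card (Subgroup.centralizer ({g} : Set G))).factorization p] ∧
        (¬ Exc p g → RegDiv p g) := by
  refine ⟨P179C.exists_red p k, fun red 𝒞 h𝒞 => ⟨?_, fun hW => weightConj_iff_reg red 𝒞 h𝒞 hW⟩,
    fun G _ _ hO g hg => ⟨(Nat.modEq_iff_dvd.2 (gen_sub_reg hO hg)).symm, fun h =>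
      (genDiv_iff_regDiv hO hg).1 (genDiv_of_not_exc hO hg h)⟩⟩
  have h1 : WeightConjMod p red 𝒞 ↔ RegDivisible p 𝒞 := (tfae_reg red 𝒞 h𝒞).out 0 3
  have h2 : WeightConjMod p red 𝒞 ↔ RegDivisibleExc p 𝒞 := (tfae_reg red 𝒞 h𝒞).out 0 4
  tfae_have 1 ↔ 2 := h1
  tfae_have 1 ↔ 3 := h2
  tfae_finish
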