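import Vale.Agent.P179.H5.Tw4

/-!
# The blockwise Alperin weight conjecture for `p = 2, 3` as a count of pairs of elements of small
order

For `(p, a, b) = (2, 4, 2)` and `(3, 3, 3)` let `T(g)` be the number of pairs `(s, t)` with
`s ^ a = t ^ b = 1` and `(s t) ^ a = g` such that `⟨s, t⟩` contains all elements of order prime to
`p` and `s t` is conjugate to `s t z` for all powers `z` of `s t` with `z ^ a = 1`. For a class of
finite groups closed under subgroups, quotients by normal `p`-subgroups and wreath products with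
groups of order `p` (for example all finite groups), the blockwise Alperin weight conjecture for
all `p`-blocks is equivalent to the following: if `O_p(G) = 1` and the order of `g` is divisible by
`p` but not by `p ^ 2`, then `p |C_G(g)|_p` divides `T(g)`.
-/

open P179B P179S

theorem Vale.Agent.Results.P179.TriangleCounts.result (p a b : ℕ)
    (h : (p = 2 ∧ a = 4 ∧ b = 2) ∨ (p = 3 ∧ a = 3 ∧ b = 3)) [Fact p.Prime]
    (k : Type*) [Field k] [IsAlgClosed k] [CharP k p] :
    Nonempty (integralClosure ℤ ℂ →+* k) ∧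
    (∀ (red : integralClosure ℤ ℂ →+* k) (𝒞 : ∀ (G : Type) [Group G], Prop),
      SectionClosed p 𝒞 → (WeightConjMod p red 𝒞 ↔ TriDivisible p a b 𝒞) ∧
        (WreathClosed p 𝒞 → (WeightConj p red 𝒞 ↔ TriDivisible p a b 𝒞))) ∧
    ∀ (G : Type) [Group G] [Finite G], (∀ R : Subgroup G, R.Normal → IsPGroup p R → R = ⊥) →
      ∀ g : G, p ∣ orderOf g → genCount p g ≡ triCount p a b g
        [MOD p * p ^ (Nat.card (Subgroup.centralizer ({g} : Set G))).factorization p] := by
  have hab : ∀ (G : Type) [Group G] [Finite G],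
      (∀ R : Subgroup G, R.Normal → IsPGroup p R → R = ⊥) → ∀ g : G, p ∣ orderOf g →
      ((p * p ^ (Nat.card (Subgroup.centralizer ({g} : Set G))).factorization p : ℕ) : ℤ) ∣
      (genCount p g : ℤ) - triCount p a b g := by
    rcases h with ⟨rfl, rfl, rfl⟩ | ⟨rfl, rfl, rfl⟩
    · exact fun G _ _ hO g hg => gen_sub_tri2 hO hg
    · exact fun G _ _ hO g hg => gen_sub_tri3 hO hg
  exact ⟨P179C.exists_red p k, fun red 𝒞 h𝒞 => tfae_tri_aux hab red 𝒞 h𝒞,
    fun G _ _ hO g hg => (Nat.modEq_iff_dvd.2 (hab G hO g hg)).symm⟩
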