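import Vale.Agent.P179.H5.Sm5

/-!
# Reduction of the blockwise Alperin weight conjecture to a congruence for special blocks

For a class of finite groups closed under subgroups, quotients by normal `p`-subgroups and wreath
products with groups of order `p` (for example all finite groups), the blockwise Alperin weight
conjecture for all `p`-blocks is equivalent to the congruence modulo `p` for the blocks whose
defect groups `D` are special, of the groups `G` in the class without nontrivial normal
`p`-subgroups. If `D` is special, then `G` is the product of a subgroup generated by two elements
and `D`, and this subgroup contains all elements of order prime to `p`.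
-/

open P179B P179S

theorem Vale.Agent.Results.P179.TwoGeneratedReduction.result (p : ℕ) [Fact p.Prime]
    (k : Type*) [Field k] [IsAlgClosed k] [CharP k p] :
    Nonempty (integralClosure ℤ ℂ →+* k) ∧
    ∀ (red : integralClosure ℤ ℂ →+* k) (𝒞 : ∀ (G : Type) [Group G], Prop),
      SectionClosed p 𝒞 →
      (WeightConjMod p red 𝒞 ↔ WeightConjModSpecial p red 𝒞) ∧
      (WreathClosed p 𝒞 → (WeightConj p red 𝒞 ↔ WeightConjModSpecial p red 𝒞)) :=
  ⟨P179C.exists_red p k, fun red _ h𝒞 => ⟨reduction red h𝒞, fun hW => reduction_wreath red h𝒞 hW⟩⟩
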